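import Vale.Agent.Lib.P154.Neg.LP.B4550.D

/-!
Part of the computations of a certificate for a restricted range of `theta`.
-/

namespace Vale.Agent.Lib.P154.Neg.B4550

open Vale.Agent.Lib.P154.Neg.Kron Vale.Agent.Lib.P154.Neg Vale.Agent.Lib.P154.Neg.Cst

theorem ctY1_8 : checkCT C.A C.eY1 (c20 (MC C.a0 C.b0 C.c0)) tY1_8 = true := by decide +kernel

theorem ctY2_0 : checkCT C.A C.eY2 (MC C.a0 C.b0 C.c0) tY2_0 = true := by decide +kernel

theorem ctQ1_1 : checkTree 4 (eQ1t C) btQ1_0l tQ1_1 = true := by decide +kernel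

theorem ctQ1_2 : checkTree 4 (eQ1t C) btQ1_0r tQ1_2 = true := by decide +kernel

end Vale.Agent.Lib.P154.Neg.B4550
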